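import Mathlib

/-!
P045 (Ryser's conjecture): three classes of `r`-partite hypergraphs with linearly ordered parts.

An `r`-partite `r`-uniform hypergraph whose `i`-th part is a copy `{i} × α` of `α` is recorded as a
finite set `H` of functions `e : Fin r → α`: the edge `e` consists of the vertices `(i, e i)`.
-/

namespace Vale.Agent.Lib.P045


variable {r : ℕ} {α : Type*}

/-- `S` is a vertex cover of `H`: every edge `e` contains a vertex `(i, e i)` of `S`. -/
def IsCover (H : Finset (Fin r → α)) (S : Finset (Fin r × α)) : Prop :=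
  ∀ e ∈ H, ∃ i, (i, e i) ∈ S

/-- `M` is a matching of `H`: a set of edges of `H`, any two distinct ones having no common vertex. -/
def IsMatching (H M : Finset (Fin r → α)) : Prop :=
  M ⊆ H ∧ ∀ e ∈ M, ∀ f ∈ M, e ≠ f → ∀ i, e i ≠ f i

/-- covering number: the least size of a vertex cover. -/
noncomputable def tau (H : Finset (Fin r → α)) : ℕ :=
  sInf {n | ∃ S : Finset (Fin r × α), IsCover H S ∧ S.card = n}

/-- matching number: the largest size of a matching. -/
noncomputable def nu (H : Finset (Fin r → α)) : ℕ :=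
  sSup {n | ∃ M : Finset (Fin r → α), IsMatching H M ∧ M.card = n}

lemma tau_le {H : Finset (Fin r → α)} {S : Finset (Fin r × α)} (h : IsCover H S) :
    tau H ≤ S.card :=
  Nat.sInf_le ⟨S, h, rfl⟩

lemma le_nu {H M : Finset (Fin r → α)} (h : IsMatching H M) : M.card ≤ nu H := by
  apply le_csSup
  · refine ⟨H.card, ?_⟩
    rintro n ⟨M', hM', rfl⟩
    exact Finset.card_le_card hM'.1
  · exact ⟨M, h, rfl⟩

/-- weak duality -/
lemma card_matching_le_card_cover {H M : Finset (Fin r → α)} {S : Finset (Fin r × α)}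
    (hM : IsMatching H M) (hS : IsCover H S) : M.card ≤ S.card := by
  classical
  have h : ∀ e ∈ M, ∃ i, (i, e i) ∈ S := fun e he => hS e (hM.1 he)
  choose c hc using h
  rw [← Finset.card_attach]
  apply Finset.card_le_card_of_injOn (fun e => (c e.1 e.2, e.1 (c e.1 e.2)))
  · intro e _
    exact hc e.1 e.2
  · intro e _ f _ hef
    by_contra hne
    simp only [Prod.mk.injEq] at hef
    obtain ⟨h1, h2⟩ := hef
    rw [← h1] at h2
    exact hM.2 e.1 e.2 f.1 f.2 (fun h => hne (Subtype.ext h)) _ h2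

lemma nu_le_tau {H : Finset (Fin r → α)} {S : Finset (Fin r × α)} (hS : IsCover H S) :
    nu H ≤ tau H := by
  have hne : {n | ∃ S : Finset (Fin r × α), IsCover H S ∧ S.card = n}.Nonempty := ⟨_, S, hS, rfl⟩
  obtain ⟨S', hS', hcard⟩ := Nat.sInf_mem hne
  apply csSup_le
  · exact ⟨0, ∅, ⟨by simp, by simp⟩, rfl⟩
  · rintro n ⟨M, hM, rfl⟩
    have := card_matching_le_card_cover hM hS'
    rw [hcard] at this
    exact this

variable [LinearOrder α]

/-- joins of witnesses -/
lemma join_witness (hr : 0 < r) {H : Finset (Fin r → α)}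
    (hsup : ∀ e ∈ H, ∀ f ∈ H, e ⊔ f ∈ H) (c : Fin r → α) (X : Fin r → (Fin r → α))
    (hX : ∀ j, X j ∈ H) (hc : ∀ j, c j < X j j) :
    ∃ y ∈ H, (∀ j, c j < y j) ∧ ∀ i, ∃ j, y i = X j i := by
  have hne : (Finset.univ : Finset (Fin r)).Nonempty := ⟨⟨0, hr⟩, Finset.mem_univ _⟩
  refine ⟨Finset.univ.sup' hne X, ?_, ?_, ?_⟩
  · exact Finset.sup'_mem (H : Set (Fin r → α)) hsup _ hne X (fun j _ => hX j)
  · intro j
    have : X j ≤ Finset.univ.sup' hne X := Finset.le_sup' X (Finset.mem_univ j)
    exact lt_of_lt_of_le (hc j) (this j)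
  · intro i
    rw [Finset.sup'_apply]
    obtain ⟨j, _, hj⟩ := Finset.exists_mem_eq_sup' hne (fun a => X a i)
    exact ⟨j, hj⟩

lemma exists_top_coord (hr : 0 < r) {H : Finset (Fin r → α)}
    (hsup : ∀ e ∈ H, ∀ f ∈ H, e ⊔ f ∈ H) (g : Fin r → α)
    (hno : ¬ ∃ x ∈ H, ∀ j, g j < x j) : ∃ i, ∀ x ∈ H, x i ≤ g i := by
  by_contra hcon
  push Not at hcon
  choose X hX hc using hcon
  obtain ⟨y, hy, hlt, _⟩ := join_witness hr hsup g X hX hc
  exact hno ⟨y, hy, hlt⟩

lemma exists_pred_coord (hr : 0 < r) {H : Finset (Fin r → α)}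
    (hsup : ∀ e ∈ H, ∀ f ∈ H, e ⊔ f ∈ H) (g g' : Fin r → α)
    (hleast : ∀ x ∈ H, (∀ j, g j < x j) → g' ≤ x) (i' : Fin r) :
    ∃ i, ∀ x ∈ H, g i < x i → g' i' ≤ x i' := by
  by_contra hcon
  push Not at hcon
  choose X hX hc hlt using hcon
  obtain ⟨y, hy, hgy, hatt⟩ := join_witness hr hsup g X hX hc
  obtain ⟨j, hj⟩ := hatt i'
  have h1 := hleast y hy hgy i'
  rw [hj] at h1
  exact absurd (hlt j) (not_lt.2 h1)

lemma exists_least {H : Finset (Fin r → α)}
    (hinf : ∀ e ∈ H, ∀ f ∈ H, e ⊓ f ∈ H) (g : Fin r → α)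
    (hex : ∃ x ∈ H, ∀ j, g j < x j) :
    ∃ g' ∈ H, (∀ j, g j < g' j) ∧ ∀ x ∈ H, (∀ j, g j < x j) → g' ≤ x := by
  classical
  obtain ⟨x0, hx0, hx0'⟩ := hex
  have hne : (H.filter (fun x => ∀ j, g j < x j)).Nonempty :=
    ⟨x0, Finset.mem_filter.2 ⟨hx0, hx0'⟩⟩
  refine ⟨(H.filter (fun x => ∀ j, g j < x j)).inf' hne id, ?_, ?_, ?_⟩
  · exact Finset.inf'_mem (H : Set (Fin r → α)) hinf _ hne id
      (fun x hx => (Finset.mem_filter.1 hx).1)
  · intro j
    rw [Finset.inf'_apply]
    obtain ⟨x, hx, hxe⟩ := Finset.exists_mem_eq_inf' hne (fun a => id a j)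
    rw [hxe]
    exact (Finset.mem_filter.1 hx).2 j
  · intro x hx hgx
    exact Finset.inf'_le id (Finset.mem_filter.2 ⟨hx, hgx⟩)

open scoped Classical in
lemma main_induction (hr : 0 < r) {H : Finset (Fin r → α)}
    (hinf : ∀ e ∈ H, ∀ f ∈ H, e ⊓ f ∈ H) (hsup : ∀ e ∈ H, ∀ f ∈ H, e ⊔ f ∈ H) :
    ∀ n : ℕ, ∀ g ∈ H, (H.filter (fun x => g ≤ x)).card ≤ n →
      ∃ (i : Fin r) (Y : Finset (Fin r × α)) (M : Finset (Fin r → α)),
        IsMatching H M ∧ (∀ f ∈ M, g ≤ f) ∧ Y.card ≤ M.card ∧
          ∀ x ∈ H, g i ≤ x i → ∃ j, (j, x j) ∈ Y := by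
  classical
  intro n
  induction n with
  | zero =>
    intro g hg hcard
    exfalso
    have : g ∈ H.filter (fun x => g ≤ x) := Finset.mem_filter.2 ⟨hg, le_refl g⟩
    have := Finset.card_pos.2 ⟨g, this⟩
    omega
  | succ n ih =>
    intro g hg hcard
    by_cases hex : ∃ x ∈ H, ∀ j, g j < x j
    · obtain ⟨g', hg', hlt, hleast⟩ := exists_least hinf g hex
      have hsub : (H.filter (fun x => g' ≤ x)) ⊂ (H.filter (fun x => g ≤ x)) := by
        refine Finset.ssubset_iff_subset_ne.2 ⟨?_, ?_⟩
        · intro x hx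
          obtain ⟨hx1, hx2⟩ := Finset.mem_filter.1 hx
          exact Finset.mem_filter.2 ⟨hx1, fun j => le_trans (le_of_lt (hlt j)) (hx2 j)⟩
        · intro heq
          have : g ∈ H.filter (fun x => g' ≤ x) := by
            rw [heq]; exact Finset.mem_filter.2 ⟨hg, le_refl g⟩
          have h2 := (Finset.mem_filter.1 this).2 ⟨0, hr⟩
          exact absurd (hlt ⟨0, hr⟩) (not_lt.2 h2)
      have hc' := Finset.card_lt_card hsub
      obtain ⟨i', Y', M', hM', hge, hYM, hcov⟩ := ih g' hg' (by omega)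
      obtain ⟨i, hi⟩ := exists_pred_coord hr hsup g g' hleast i'
      have hgM : g ∉ M' := by
        intro hmem
        have := hge g hmem ⟨0, hr⟩
        exact absurd (hlt ⟨0, hr⟩) (not_lt.2 this)
      refine ⟨i, insert (i, g i) Y', insert g M', ?_, ?_, ?_, ?_⟩
      · constructor
        · intro e he
          rcases Finset.mem_insert.1 he with rfl | he
          · exact hg
          · exact hM'.1 he
        · intro e he f hf hne j
          rcases Finset.mem_insert.1 he with he1 | he1
          · rcases Finset.mem_insert.1 hf with hf1 | hf1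
            · exact absurd (he1.trans hf1.symm) hne
            · rw [he1]
              exact ne_of_lt (lt_of_lt_of_le (hlt j) (hge f hf1 j))
          · rcases Finset.mem_insert.1 hf with hf1 | hf1
            · rw [hf1]
              exact ne_of_gt (lt_of_lt_of_le (hlt j) (hge e he1 j))
            · exact hM'.2 e he1 f hf1 hne j
      · intro f hf
        rcases Finset.mem_insert.1 hf with rfl | hf
        · exact le_refl _
        · exact fun j => le_trans (le_of_lt (hlt j)) (hge f hf j)
      · rw [Finset.card_insert_of_notMem hgM]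
        exact le_trans (Finset.card_insert_le _ _) (by omega)
      · intro x hx hxi
        rcases eq_or_lt_of_le hxi with heq | hlt'
        · exact ⟨i, by rw [← heq]; exact Finset.mem_insert_self _ _⟩
        · obtain ⟨j, hj⟩ := hcov x hx (hi x hx hlt')
          exact ⟨j, Finset.mem_insert_of_mem hj⟩
    · obtain ⟨i, hi⟩ := exists_top_coord hr hsup g hex
      refine ⟨i, {(i, g i)}, {g}, ?_, ?_, ?_, ?_⟩
      · constructor
        · intro e he
          rw [Finset.mem_singleton.1 he]; exact hg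
        · intro e he f hf hne
          rw [Finset.mem_singleton.1 he, Finset.mem_singleton.1 hf] at hne
          exact absurd rfl hne
      · intro f hf
        rw [Finset.mem_singleton.1 hf]
      · simp
      · intro x hx hxi
        exact ⟨i, by rw [le_antisymm (hi x hx) hxi]; exact Finset.mem_singleton_self _⟩

theorem lattice_konig (r : ℕ) (hr : 1 ≤ r) (α : Type) [LinearOrder α] (H : Finset (Fin r → α))
    (hinf : ∀ e ∈ H, ∀ f ∈ H, e ⊓ f ∈ H) (hsup : ∀ e ∈ H, ∀ f ∈ H, e ⊔ f ∈ H) :
    tau H = nu H := by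
  classical
  rcases H.eq_empty_or_nonempty with rfl | hne
  · have h1 : tau (∅ : Finset (Fin r → α)) ≤ 0 := by
      have := tau_le (H := (∅ : Finset (Fin r → α))) (S := ∅) (by intro e he; simp at he)
      simpa using this
    have h2 := nu_le_tau (H := (∅ : Finset (Fin r → α))) (S := ∅) (by intro e he; simp at he)
    omega
  · have hbot : H.inf' hne id ∈ H :=
      Finset.inf'_mem (H : Set (Fin r → α)) hinf _ hne id (fun x hx => hx)
    obtain ⟨i, Y, M, hM, _, hYM, hcov⟩ :=
      main_induction hr hinf hsup _ (H.inf' hne id) hbot (le_refl _)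
    have hY : IsCover H Y := by
      intro x hx
      exact hcov x hx ((Finset.inf'_le id hx : H.inf' hne id ≤ x) i)
    have h1 := tau_le hY
    have h2 := le_nu hM
    have h3 := nu_le_tau hY
    omega


/-- intersecting hypergraphs closed under coordinatewise minimum -/
theorem meet_closed_intersecting (r : ℕ) (hr : 2 ≤ r) (α : Type) [LinearOrder α]
    (H : Finset (Fin r → α)) (hne : H.Nonempty) (hinf : ∀ e ∈ H, ∀ f ∈ H, e ⊓ f ∈ H)
    (hint : ∀ e ∈ H, ∀ f ∈ H, ∃ i, e i = f i) : tau H ≤ r - 1 := by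
  classical
  have hb : H.inf' hne id ∈ H :=
    Finset.inf'_mem (H : Set (Fin r → α)) hinf _ hne id (fun x hx => hx)
  have hble : ∀ x ∈ H, H.inf' hne id ≤ x := fun x hx => Finset.inf'_le id hx
  generalize H.inf' hne id = b at hb hble
  by_contra hcon
  have key : ∀ i : Fin r, ∃ e ∈ H, ∀ l, l ≠ i → b l < e l := by
    by_contra hk
    push Not at hk
    obtain ⟨i, hi⟩ := hk
    apply hcon
    have hc : IsCover H ((Finset.univ.erase i).image (fun l => (l, b l))) := by
      intro e he
      obtain ⟨l, hl, hle⟩ := hi e he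
      refine ⟨l, Finset.mem_image.2 ⟨l, Finset.mem_erase.2 ⟨hl, Finset.mem_univ _⟩, ?_⟩⟩
      rw [le_antisymm hle (hble e he l)]
    refine le_trans (tau_le hc) (le_trans Finset.card_image_le ?_)
    rw [Finset.card_erase_of_mem (Finset.mem_univ _), Finset.card_univ, Fintype.card_fin]
  choose E hE hpos using key
  have hdiag : ∀ i, E i i = b i := by
    intro i
    obtain ⟨l, hl⟩ := hint (E i) (hE i) b hb
    by_cases hli : l = i
    · rw [hli] at hl; exact hl
    · exact absurd hl (ne_of_gt (hpos i l hli))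
  have hT : (Finset.univ.erase (⟨0, by omega⟩ : Fin r)).Nonempty :=
    ⟨⟨1, by omega⟩, Finset.mem_erase.2 ⟨by simp [Fin.ext_iff], Finset.mem_univ _⟩⟩
  have hm : (Finset.univ.erase (⟨0, by omega⟩ : Fin r)).inf' hT E ∈ H :=
    Finset.inf'_mem (H : Set (Fin r → α)) hinf _ hT E (fun i _ => hE i)
  obtain ⟨l, hl⟩ := hint (E ⟨0, by omega⟩) (hE _) _ hm
  rw [Finset.inf'_apply] at hl
  by_cases hl0 : l = ⟨0, by omega⟩
  · obtain ⟨i, hi, hie⟩ := Finset.exists_mem_eq_inf' hT (fun a => E a l)
    rw [hie, hl0, hdiag] at hl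
    have : (⟨0, by omega⟩ : Fin r) ≠ i := fun h => (Finset.mem_erase.1 hi).1 h.symm
    exact absurd hl (ne_of_lt (hpos i _ this))
  · have h1 : (Finset.univ.erase (⟨0, by omega⟩ : Fin r)).inf' hT (fun a => E a l) ≤ E l l :=
      Finset.inf'_le (fun a => E a l) (Finset.mem_erase.2 ⟨hl0, Finset.mem_univ _⟩)
    rw [← hl, hdiag] at h1
    exact absurd (hpos _ l hl0) (not_lt.2 h1)

section shifted
/-- the staircase below `b`. -/
def stair (b : Fin r → ℕ) : Finset (Fin r × ℕ) :=
  Finset.univ.sigma (fun i => Finset.range (b i)) |>.map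
    ⟨fun p => (p.1, p.2), fun p q h => by
      cases p; cases q; simp only [Prod.mk.injEq] at h; obtain ⟨rfl, rfl⟩ := h; rfl⟩

lemma card_stair (b : Fin r → ℕ) : (stair b).card = ∑ i, b i := by
  simp [stair]

lemma mem_stair (b : Fin r → ℕ) (i : Fin r) (j : ℕ) : (i, j) ∈ stair b ↔ j < b i := by
  simp only [stair, Finset.mem_map, Finset.mem_sigma, Finset.mem_univ, true_and,
    Finset.mem_range, Sigma.exists]
  constructor
  · rintro ⟨a, c, h, heq⟩
    cases heq
    exact h
  · intro h; exact ⟨i, j, h, rfl⟩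

/-- In a lower set every vector of coordinate sum `< τ` is an edge. -/
lemma mem_of_sum_lt {H : Finset (Fin r → ℕ)} (hH : IsLowerSet (H : Set (Fin r → ℕ)))
    (b : Fin r → ℕ) (hb : ∑ i, b i < tau H) : b ∈ H := by
  by_contra hn
  have hc : IsCover H (stair b) := by
    intro e he
    by_contra hne
    push Not at hne
    apply hn
    have : b ≤ e := by
      intro i
      have := hne i
      rw [mem_stair] at this
      exact not_lt.1 this
    exact hH this he
  have := tau_le hc
  rw [card_stair] at this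
  omega

/-- The balanced families: `k+1` vectors, pairwise different in every coordinate, of coordinate sum
at most `(r k + 1)/2`. -/
def Balanced (k r : ℕ) : Prop :=
  ∃ v : ℕ → Fin r → ℕ, (∀ i, ∀ j ≤ k, ∀ j' ≤ k, v j i = v j' i → j = j') ∧
    ∀ j ≤ k, 2 * ∑ i, v j i ≤ r * k + 1

lemma balanced_two (k : ℕ) : Balanced k 2 := by
  refine ⟨fun j => ![j, k - j], ?_, ?_⟩
  · intro i j hj j' hj' h
    fin_cases i
    · simpa using h
    · simp at h; omega
  · intro j hj
    simp [Fin.sum_univ_two]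
    omega

lemma balanced_three (k : ℕ) : Balanced k 3 := by
  refine ⟨fun j => ![j, if 2 * j ≤ k then k - 2 * j else 2 * (k - j) + (1 - k % 2),
    if 2 * j ≤ k then (k + 1) / 2 + j else j - k / 2 - 1], ?_, ?_⟩
  · intro i j hj j' hj' h
    fin_cases i
    · simpa using h
    · simp at h
      split_ifs at h <;> omega
    · simp at h
      split_ifs at h <;> omega
  · intro j hj
    simp [Fin.sum_univ_three]
    split_ifs <;> omega

lemma balanced_add_two {k r : ℕ} (h : Balanced k r) : Balanced k (r + 2) := by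
  obtain ⟨v, h1, h2⟩ := h
  refine ⟨fun j => Fin.cons j (Fin.cons (k - j) (v j)), ?_, ?_⟩
  · intro i j hj j' hj' h
    induction i using Fin.cases with
    | zero => simpa using h
    | succ i =>
      induction i using Fin.cases with
      | zero => simp at h; omega
      | succ i => simp at h; exact h1 i j hj j' hj' h
  · intro j hj
    have := h2 j hj
    simp only [Fin.sum_univ_succ, Fin.cons_zero, Fin.cons_succ]
    have e : (r + 2) * k = r * k + 2 * k := by ring
    rw [e]
    omega

lemma balanced (k : ℕ) : ∀ r, 2 ≤ r → Balanced k r := by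
  intro r
  induction r using Nat.strong_induction_on with
  | _ r ih =>
    intro hr
    rcases Nat.lt_or_ge r 4 with h | h
    · interval_cases r
      · exact balanced_two k
      · exact balanced_three k
    · obtain ⟨s, rfl⟩ : ∃ s, r = s + 2 := ⟨r - 2, by omega⟩
      exact balanced_add_two (ih s (by omega) (by omega))

theorem sharp_bound (hr : 2 ≤ r) (H : Finset (Fin r → ℕ))
    (hH : IsLowerSet (H : Set (Fin r → ℕ))) : 2 * tau H ≤ r * nu H + 1 := by
  by_contra hcon
  push Not at hcon
  obtain ⟨v, h1, h2⟩ := balanced (nu H) r hr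
  have hr0 : 0 < r := by omega
  have hinj : Set.InjOn v (Finset.range (nu H + 1) : Set ℕ) := by
    intro j hj j' hj' h
    simp only [Finset.coe_range, Set.mem_Iio] at hj hj'
    exact h1 ⟨0, hr0⟩ j (by omega) j' (by omega) (by rw [h])
  have hM : IsMatching H ((Finset.range (nu H + 1)).image v) := by
    constructor
    · intro e he
      obtain ⟨j, hj, rfl⟩ := Finset.mem_image.1 he
      have hj' : j ≤ nu H := by simpa [Nat.lt_succ_iff] using hj
      apply mem_of_sum_lt hH
      have := h2 j hj'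
      omega
    · intro e he f hf hne i heq
      obtain ⟨j, hj, rfl⟩ := Finset.mem_image.1 he
      obtain ⟨j', hj', rfl⟩ := Finset.mem_image.1 hf
      have hj1 : j ≤ nu H := by simpa [Nat.lt_succ_iff] using hj
      have hj2 : j' ≤ nu H := by simpa [Nat.lt_succ_iff] using hj'
      exact hne (by rw [h1 i j hj1 j' hj2 heq])
  have := le_nu hM
  rw [Finset.card_image_of_injOn hinj, Finset.card_range] at this
  omega

theorem shifted_ryser (r : ℕ) (hr : 2 ≤ r) (H : Finset (Fin r → ℕ))
    (hH : IsLowerSet (H : Set (Fin r → ℕ))) :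
    2 * tau H ≤ r * nu H + 1 ∧ tau H ≤ (r - 1) * nu H := by
  have h := sharp_bound hr H hH
  refine ⟨h, ?_⟩
  obtain ⟨s, rfl⟩ : ∃ s, r = s + 2 := ⟨r - 2, by omega⟩
  have e1 : (s + 2 - 1) * nu H = s * nu H + nu H := by
    have : s + 2 - 1 = s + 1 := by omega
    rw [this]; ring
  have e2 : (s + 2) * nu H = s * nu H + 2 * nu H := by ring
  rw [e1]
  rw [e2] at h
  rcases Nat.eq_zero_or_pos s with rfl | hs
  · omega
  · rcases Nat.eq_zero_or_pos (nu H) with h0 | h0
    · rw [h0] at h ⊢
      omega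
    · have : nu H ≤ s * nu H := Nat.le_mul_of_pos_left _ hs
      omega


end shifted

end Vale.Agent.Lib.P045
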