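import Mathlib
import Vale.Agent.Lib.P045.Ordered

/-!
P045: hypergraphs closed under the coordinatewise median, with a least edge: `τ ≤ 2 ν`.
-/

namespace Vale.Agent.Lib.P045

/-- Helly property for families of sets that are stable under a majority operation. -/
lemma helly {β ι : Type*} [DecidableEq ι] (m : β → β → β → β) (H : Finset β)
    (hm : ∀ x ∈ H, ∀ y ∈ H, ∀ z ∈ H, m x y z ∈ H) (C : ι → β → Prop)
    (h12 : ∀ t x y z, C t x → C t y → C t (m x y z))
    (h23 : ∀ t x y z, C t y → C t z → C t (m x y z))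
    (h13 : ∀ t x y z, C t x → C t z → C t (m x y z)) :
    ∀ n : ℕ, ∀ I : Finset ι, I.card = n → I.Nonempty →
      (∀ s ∈ I, ∀ t ∈ I, ∃ x ∈ H, C s x ∧ C t x) → ∃ x ∈ H, ∀ t ∈ I, C t x := by
  intro n
  induction n using Nat.strong_induction_on with
  | _ n ih =>
    intro I hcard hne hpair
    by_cases h3 : 2 < I.card
    · obtain ⟨a, ha, b, hb, c, hc, hab, hac, hbc⟩ := Finset.two_lt_card.1 h3
      have step : ∀ d ∈ I, ∃ x ∈ H, ∀ t ∈ I.erase d, C t x := by
        intro d hd
        have hc1 : (I.erase d).card = n - 1 := by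
          rw [Finset.card_erase_of_mem hd, hcard]
        have hne1 : (I.erase d).Nonempty := by
          apply Finset.card_pos.1
          omega
        exact ih (n - 1) (by omega) (I.erase d) hc1 hne1
          (fun s hs t ht => hpair s (Finset.mem_of_mem_erase hs) t (Finset.mem_of_mem_erase ht))
      obtain ⟨xa, hxa, hxa'⟩ := step a ha
      obtain ⟨xb, hxb, hxb'⟩ := step b hb
      obtain ⟨xc, hxc, hxc'⟩ := step c hc
      refine ⟨m xa xb xc, hm xa hxa xb hxb xc hxc, ?_⟩
      intro t ht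
      by_cases hta : t = a
      · subst hta
        exact h23 t _ _ _ (hxb' t (Finset.mem_erase.2 ⟨hab, ht⟩))
          (hxc' t (Finset.mem_erase.2 ⟨hac, ht⟩))
      · by_cases htb : t = b
        · subst htb
          exact h13 t _ _ _ (hxa' t (Finset.mem_erase.2 ⟨hta, ht⟩))
            (hxc' t (Finset.mem_erase.2 ⟨hbc, ht⟩))
        · exact h12 t _ _ _ (hxa' t (Finset.mem_erase.2 ⟨hta, ht⟩))
            (hxb' t (Finset.mem_erase.2 ⟨htb, ht⟩))
    · have hpos := Finset.card_pos.2 hne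
      have h12' : I.card = 1 ∨ I.card = 2 := by omega
      rcases h12' with h1 | h2
      · obtain ⟨s, rfl⟩ := Finset.card_eq_one.1 h1
        obtain ⟨x, hx, hx1, _⟩ := hpair s (Finset.mem_singleton_self s) s (Finset.mem_singleton_self s)
        exact ⟨x, hx, fun t ht => by rw [Finset.mem_singleton.1 ht]; exact hx1⟩
      · obtain ⟨s, t, _, rfl⟩ := Finset.card_eq_two.1 h2
        obtain ⟨x, hx, hx1, hx2⟩ := hpair s (by simp) t (by simp)
        refine ⟨x, hx, fun u hu => ?_⟩
        rcases Finset.mem_insert.1 hu with rfl | hu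
        · exact hx1
        · rw [Finset.mem_singleton.1 hu]; exact hx2

variable {r : ℕ} {α : Type*} [LinearOrder α]

/-- the predicates used: `none` is `x i' < c`, `some t` is `g t < x t`. -/
def Cond (g : Fin r → α) (i' : Fin r) (c : α) : Option (Fin r) → (Fin r → α) → Prop
  | none, x => x i' < c
  | some t, x => g t < x t

lemma cond12 (g : Fin r → α) (i' : Fin r) (c : α) (t : Option (Fin r)) (x y z : Fin r → α)
    (hx : Cond g i' c t x) (hy : Cond g i' c t y) :
    Cond g i' c t ((x ⊓ y) ⊔ (y ⊓ z) ⊔ (z ⊓ x)) := by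
  cases t with
  | none =>
    simp only [Cond, Pi.sup_apply, Pi.inf_apply, sup_lt_iff, inf_lt_iff] at *
    exact ⟨⟨Or.inl hx, Or.inl hy⟩, Or.inr hx⟩
  | some t =>
    simp only [Cond, Pi.sup_apply, Pi.inf_apply, lt_sup_iff, lt_inf_iff] at *
    exact Or.inl (Or.inl ⟨hx, hy⟩)

lemma cond23 (g : Fin r → α) (i' : Fin r) (c : α) (t : Option (Fin r)) (x y z : Fin r → α)
    (hy : Cond g i' c t y) (hz : Cond g i' c t z) :
    Cond g i' c t ((x ⊓ y) ⊔ (y ⊓ z) ⊔ (z ⊓ x)) := by
  cases t with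
  | none =>
    simp only [Cond, Pi.sup_apply, Pi.inf_apply, sup_lt_iff, inf_lt_iff] at *
    exact ⟨⟨Or.inr hy, Or.inl hy⟩, Or.inl hz⟩
  | some t =>
    simp only [Cond, Pi.sup_apply, Pi.inf_apply, lt_sup_iff, lt_inf_iff] at *
    exact Or.inl (Or.inr ⟨hy, hz⟩)

lemma cond13 (g : Fin r → α) (i' : Fin r) (c : α) (t : Option (Fin r)) (x y z : Fin r → α)
    (hx : Cond g i' c t x) (hz : Cond g i' c t z) :
    Cond g i' c t ((x ⊓ y) ⊔ (y ⊓ z) ⊔ (z ⊓ x)) := by
  cases t with
  | none =>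
    simp only [Cond, Pi.sup_apply, Pi.inf_apply, sup_lt_iff, inf_lt_iff] at *
    exact ⟨⟨Or.inl hx, Or.inr hz⟩, Or.inl hz⟩
  | some t =>
    simp only [Cond, Pi.sup_apply, Pi.inf_apply, lt_sup_iff, lt_inf_iff] at *
    exact Or.inr ⟨hz, hx⟩

/-- closure under minimum, from the median with the least edge -/
lemma inf_closed_of_med {H : Finset (Fin r → α)}
    (hmed : ∀ x ∈ H, ∀ y ∈ H, ∀ z ∈ H, (x ⊓ y) ⊔ (y ⊓ z) ⊔ (z ⊓ x) ∈ H)
    {b : Fin r → α} (hb : b ∈ H) (hble : ∀ x ∈ H, b ≤ x) : ∀ e ∈ H, ∀ f ∈ H, e ⊓ f ∈ H := by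
  intro e he f hf
  have h := hmed e he f hf b hb
  have e1 : f ⊓ b = b := inf_eq_right.2 (hble f hf)
  have e2 : b ⊓ e = b := inf_eq_left.2 (hble e he)
  have e3 : b ≤ e ⊓ f := le_inf (hble e he) (hble f hf)
  rw [e1, e2, sup_assoc, sup_idem, sup_eq_left.2 e3] at h
  exact h

/-- if no edge is strictly above `g` in all coordinates, two coordinates already obstruct -/
lemma exists_top_pair (hr : 0 < r) {H : Finset (Fin r → α)}
    (hmed : ∀ x ∈ H, ∀ y ∈ H, ∀ z ∈ H, (x ⊓ y) ⊔ (y ⊓ z) ⊔ (z ⊓ x) ∈ H) (g : Fin r → α)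
    (hno : ¬ ∃ x ∈ H, ∀ j, g j < x j) : ∃ i j, ∀ x ∈ H, ¬ (g i < x i ∧ g j < x j) := by
  classical
  by_contra hcon
  push Not at hcon
  apply hno
  have hI : ((Finset.univ : Finset (Fin r)).image some).Nonempty :=
    ⟨some ⟨0, hr⟩, Finset.mem_image.2 ⟨_, Finset.mem_univ _, rfl⟩⟩
  obtain ⟨x, hx, hx'⟩ := helly (fun x y z : Fin r → α => (x ⊓ y) ⊔ (y ⊓ z) ⊔ (z ⊓ x)) H hmed
    (Cond g ⟨0, hr⟩ (g ⟨0, hr⟩)) (cond12 _ _ _) (cond23 _ _ _) (cond13 _ _ _) _
    ((Finset.univ : Finset (Fin r)).image some) rfl hI (by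
      intro s hs t ht
      obtain ⟨i, _, rfl⟩ := Finset.mem_image.1 hs
      obtain ⟨j, _, rfl⟩ := Finset.mem_image.1 ht
      obtain ⟨x, hx, h1, h2⟩ := hcon i j
      exact ⟨x, hx, h1, h2⟩)
  exact ⟨x, hx, fun j => hx' (some j) (Finset.mem_image.2 ⟨j, Finset.mem_univ _, rfl⟩)⟩

lemma exists_pred_coord_med {H : Finset (Fin r → α)}
    (hmed : ∀ x ∈ H, ∀ y ∈ H, ∀ z ∈ H, (x ⊓ y) ⊔ (y ⊓ z) ⊔ (z ⊓ x) ∈ H) (g g' : Fin r → α)
    (hg' : g' ∈ H) (hlt : ∀ j, g j < g' j)
    (hleast : ∀ x ∈ H, (∀ j, g j < x j) → g' ≤ x) (i' : Fin r) :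
    ∃ i, ∀ x ∈ H, g i < x i → g' i' ≤ x i' := by
  classical
  by_contra hcon
  push Not at hcon
  choose X hX hc hlt' using hcon
  obtain ⟨x, hx, hx'⟩ := helly (fun x y z : Fin r → α => (x ⊓ y) ⊔ (y ⊓ z) ⊔ (z ⊓ x)) H hmed
    (Cond g i' (g' i')) (cond12 _ _ _) (cond23 _ _ _) (cond13 _ _ _) _
    (Finset.univ : Finset (Option (Fin r))) rfl ⟨none, Finset.mem_univ _⟩ (by
      intro s _ t _
      cases s with
      | none =>
        cases t with
        | none => exact ⟨X i', hX i', hlt' i', hlt' i'⟩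
        | some t => exact ⟨X t, hX t, hlt' t, hc t⟩
      | some s =>
        cases t with
        | none => exact ⟨X s, hX s, hc s, hlt' s⟩
        | some t => exact ⟨g', hg', hlt s, hlt t⟩)
  have h1 : g' ≤ x := hleast x hx (fun j => hx' (some j) (Finset.mem_univ _))
  have h2 : x i' < g' i' := hx' none (Finset.mem_univ _)
  exact absurd h2 (not_lt.2 (h1 i'))

open scoped Classical in
lemma main_induction_med (hr : 0 < r) {H : Finset (Fin r → α)}
    (hmed : ∀ x ∈ H, ∀ y ∈ H, ∀ z ∈ H, (x ⊓ y) ⊔ (y ⊓ z) ⊔ (z ⊓ x) ∈ H)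
    (hinf : ∀ e ∈ H, ∀ f ∈ H, e ⊓ f ∈ H) :
    ∀ n : ℕ, ∀ g ∈ H, (H.filter (fun x => g ≤ x)).card ≤ n →
      ∃ (i j : Fin r) (Y : Finset (Fin r × α)) (M : Finset (Fin r → α)),
        IsMatching H M ∧ (∀ f ∈ M, g ≤ f) ∧ Y.card ≤ 2 * M.card ∧
          ∀ x ∈ H, g i ≤ x i → g j ≤ x j → ∃ l, (l, x l) ∈ Y := by
  classical
  intro n
  induction n with
  | zero =>
    intro g hg hcard
    exfalso
    have : g ∈ H.filter (fun x => g ≤ x) := Finset.mem_filter.2 ⟨hg, le_refl g⟩
    have := Finset.card_pos.2 ⟨g, this⟩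
    omega
  | succ n ih =>
    intro g hg hcard
    by_cases hex : ∃ x ∈ H, ∀ j, g j < x j
    · obtain ⟨g', hg', hlt, hleast⟩ := exists_least hinf g hex
      have hsub : (H.filter (fun x => g' ≤ x)) ⊂ (H.filter (fun x => g ≤ x)) := by
        refine Finset.ssubset_iff_subset_ne.2 ⟨?_, ?_⟩
        · intro x hx
          obtain ⟨hx1, hx2⟩ := Finset.mem_filter.1 hx
          exact Finset.mem_filter.2 ⟨hx1, fun j => le_trans (le_of_lt (hlt j)) (hx2 j)⟩
        · intro heq
          have : g ∈ H.filter (fun x => g' ≤ x) := by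
            rw [heq]; exact Finset.mem_filter.2 ⟨hg, le_refl g⟩
          have h2 := (Finset.mem_filter.1 this).2 ⟨0, hr⟩
          exact absurd (hlt ⟨0, hr⟩) (not_lt.2 h2)
      have hc' := Finset.card_lt_card hsub
      obtain ⟨i', j', Y', M', hM', hge, hYM, hcov⟩ := ih g' hg' (by omega)
      obtain ⟨i, hi⟩ := exists_pred_coord_med hmed g g' hg' hlt hleast i'
      obtain ⟨j, hj⟩ := exists_pred_coord_med hmed g g' hg' hlt hleast j'
      have hgM : g ∉ M' := by
        intro hmem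
        have := hge g hmem ⟨0, hr⟩
        exact absurd (hlt ⟨0, hr⟩) (not_lt.2 this)
      refine ⟨i, j, insert (i, g i) (insert (j, g j) Y'), insert g M', ?_, ?_, ?_, ?_⟩
      · constructor
        · intro e he
          rcases Finset.mem_insert.1 he with rfl | he
          · exact hg
          · exact hM'.1 he
        · intro e he f hf hne l
          rcases Finset.mem_insert.1 he with he1 | he1
          · rcases Finset.mem_insert.1 hf with hf1 | hf1
            · exact absurd (he1.trans hf1.symm) hne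
            · rw [he1]
              exact ne_of_lt (lt_of_lt_of_le (hlt l) (hge f hf1 l))
          · rcases Finset.mem_insert.1 hf with hf1 | hf1
            · rw [hf1]
              exact ne_of_gt (lt_of_lt_of_le (hlt l) (hge e he1 l))
            · exact hM'.2 e he1 f hf1 hne l
      · intro f hf
        rcases Finset.mem_insert.1 hf with rfl | hf
        · exact le_refl _
        · exact fun l => le_trans (le_of_lt (hlt l)) (hge f hf l)
      · rw [Finset.card_insert_of_notMem hgM]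
        have h1 := Finset.card_insert_le (i, g i) (insert (j, g j) Y')
        have h2 := Finset.card_insert_le (j, g j) Y'
        omega
      · intro x hx hxi hxj
        rcases eq_or_lt_of_le hxi with heq | hlt1
        · exact ⟨i, by rw [← heq]; exact Finset.mem_insert_self _ _⟩
        · rcases eq_or_lt_of_le hxj with heq | hlt2
          · exact ⟨j, by
              rw [← heq]; exact Finset.mem_insert_of_mem (Finset.mem_insert_self _ _)⟩
          · obtain ⟨l, hl⟩ := hcov x hx (hi x hx hlt1) (hj x hx hlt2)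
            exact ⟨l, Finset.mem_insert_of_mem (Finset.mem_insert_of_mem hl)⟩
    · obtain ⟨i, j, hij⟩ := exists_top_pair hr hmed g hex
      refine ⟨i, j, {(i, g i), (j, g j)}, {g}, ?_, ?_, ?_, ?_⟩
      · constructor
        · intro e he
          rw [Finset.mem_singleton.1 he]; exact hg
        · intro e he f hf hne
          rw [Finset.mem_singleton.1 he, Finset.mem_singleton.1 hf] at hne
          exact absurd rfl hne
      · intro f hf
        rw [Finset.mem_singleton.1 hf]
      · rw [Finset.card_singleton]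
        exact Finset.card_le_two
      · intro x hx hxi hxj
        rcases eq_or_lt_of_le hxi with heq | hlt1
        · exact ⟨i, by rw [← heq]; exact Finset.mem_insert_self _ _⟩
        · rcases eq_or_lt_of_le hxj with heq | hlt2
          · exact ⟨j, by
              rw [← heq]; exact Finset.mem_insert_of_mem (Finset.mem_singleton_self _)⟩
          · exact absurd ⟨hlt1, hlt2⟩ (hij x hx)

/-- median-closed hypergraphs with a least edge -/
theorem median_closed (r : ℕ) (hr : 1 ≤ r) (α : Type) [LinearOrder α] (H : Finset (Fin r → α))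
    (hmed : ∀ x ∈ H, ∀ y ∈ H, ∀ z ∈ H, (x ⊓ y) ⊔ (y ⊓ z) ⊔ (z ⊓ x) ∈ H)
    (b : Fin r → α) (hb : b ∈ H) (hble : ∀ x ∈ H, b ≤ x) : tau H ≤ 2 * nu H := by
  classical
  have hinf := inf_closed_of_med hmed hb hble
  obtain ⟨i, j, Y, M, hM, _, hYM, hcov⟩ := main_induction_med hr hmed hinf _ b hb (le_refl _)
  have hY : IsCover H Y := fun x hx => hcov x hx (hble x hx i) (hble x hx j)
  have h1 := tau_le hY
  have h2 := le_nu hM
  omega

end Vale.Agent.Lib.P045
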