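import Mathlib
import Vale.Agent.Lib.P045.Ordered

/-!
P045: intersecting hypergraphs closed under the coordinatewise median satisfy `τ ≤ r - 1`.
-/

namespace Vale.Agent.Lib.P045

section order
variable {β : Type*} [LinearOrder β]

lemma med_gt {w u v : β} (h : w < (w ⊓ u) ⊔ (u ⊓ v) ⊔ (v ⊓ w)) : w < u ∧ w < v := by
  simp only [lt_sup_iff, lt_inf_iff, lt_self_iff_false, false_and, and_false, false_or,
    or_false] at h
  exact h

lemma med_lt {w u v : β} (h : (w ⊓ u) ⊔ (u ⊓ v) ⊔ (v ⊓ w) < w) : u < w ∧ v < w := by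
  simp only [sup_lt_iff, inf_lt_iff, lt_self_iff_false, false_or, or_false] at h
  exact ⟨h.1.1, h.2⟩

lemma gt_med {w u v : β} (h1 : w < u) (h2 : w < v) : w < (w ⊓ u) ⊔ (u ⊓ v) ⊔ (v ⊓ w) := by
  simp only [lt_sup_iff, lt_inf_iff]
  exact Or.inl (Or.inr ⟨h1, h2⟩)

lemma lt_med {w u v : β} (h1 : u < w) (h2 : v < w) : (w ⊓ u) ⊔ (u ⊓ v) ⊔ (v ⊓ w) < w := by
  simp only [sup_lt_iff, inf_lt_iff]
  exact ⟨⟨Or.inr h1, Or.inl h1⟩, Or.inl h2⟩

end order

variable {r : ℕ} {α : Type*} [LinearOrder α]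

/-- iterated medians towards `c` -/
lemma exists_meet_towards {H : Finset (Fin r → α)}
    (hmed : ∀ x ∈ H, ∀ y ∈ H, ∀ z ∈ H, (x ⊓ y) ⊔ (y ⊓ z) ⊔ (z ⊓ x) ∈ H)
    (c : Fin r → α) (hc : c ∈ H) (a : Fin r → Fin r → α) (ha : ∀ j, a j ∈ H)
    (J : Finset (Fin r)) (hJ : J.Nonempty) :
    ∃ y ∈ H, (∀ l, c l < y l → ∀ j ∈ J, c l < a j l) ∧ (∀ l, y l < c l → ∀ j ∈ J, a j l < c l) ∧
      (∀ l, (∀ j ∈ J, c l < a j l) → c l < y l) ∧ (∀ l, (∀ j ∈ J, a j l < c l) → y l < c l) := by
  classical
  induction hJ using Finset.Nonempty.cons_induction with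
  | singleton j =>
    refine ⟨a j, ha j, ?_, ?_, ?_, ?_⟩
    · intro l h j' hj'
      rw [Finset.mem_singleton.1 hj']; exact h
    · intro l h j' hj'
      rw [Finset.mem_singleton.1 hj']; exact h
    · intro l h; exact h j (Finset.mem_singleton_self j)
    · intro l h; exact h j (Finset.mem_singleton_self j)
  | cons j J hj _ ih =>
    obtain ⟨y, hy, hA, hB, hC, hD⟩ := ih
    refine ⟨(c ⊓ y) ⊔ (y ⊓ a j) ⊔ (a j ⊓ c), hmed c hc y hy (a j) (ha j), ?_, ?_, ?_, ?_⟩
    · intro l h j' hj'
      have h' := med_gt (w := c l) (u := y l) (v := a j l) h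
      rcases Finset.mem_cons.1 hj' with rfl | hj'
      · exact h'.2
      · exact hA l h'.1 j' hj'
    · intro l h j' hj'
      have h' := med_lt (w := c l) (u := y l) (v := a j l) h
      rcases Finset.mem_cons.1 hj' with rfl | hj'
      · exact h'.2
      · exact hB l h'.1 j' hj'
    · intro l h
      exact gt_med (w := c l) (u := y l) (v := a j l)
        (hC l (fun j' hj' => h j' (Finset.mem_cons.2 (Or.inr hj'))))
        (h j (Finset.mem_cons.2 (Or.inl rfl)))
    · intro l h
      exact lt_med (w := c l) (u := y l) (v := a j l)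
        (hD l (fun j' hj' => h j' (Finset.mem_cons.2 (Or.inr hj'))))
        (h j (Finset.mem_cons.2 (Or.inl rfl)))

/-- intersecting hypergraphs closed under the coordinatewise median: for every edge `c`, some
`r - 1` of its vertices form a cover. -/
theorem median_intersecting_cover (r : ℕ) (hr : 2 ≤ r) (α : Type) [LinearOrder α]
    (H : Finset (Fin r → α))
    (hmed : ∀ x ∈ H, ∀ y ∈ H, ∀ z ∈ H, (x ⊓ y) ⊔ (y ⊓ z) ⊔ (z ⊓ x) ∈ H)
    (hint : ∀ e ∈ H, ∀ f ∈ H, ∃ i, e i = f i) (c : Fin r → α) (hc : c ∈ H) :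
    ∃ i : Fin r, ∀ e ∈ H, ∃ l, l ≠ i ∧ e l = c l := by
  classical
  by_contra hk
  push Not at hk
  choose a ha hne using hk
  have hdiag : ∀ i, a i i = c i := by
    intro i
    obtain ⟨l, hl⟩ := hint (a i) (ha i) c hc
    by_cases hli : l = i
    · rw [hli] at hl; exact hl
    · exact absurd hl (hne i l hli)
  -- the classes
  let cls : Fin r × Bool → Finset (Fin r) := fun p =>
    if p.2 then Finset.univ.filter (fun j => c p.1 < a j p.1)
    else Finset.univ.filter (fun j => a j p.1 < c p.1)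
  obtain ⟨p, _, hp⟩ := Finset.exists_max_image (Finset.univ : Finset (Fin r × Bool))
    (fun p => (cls p).card) ⟨(⟨0, by omega⟩, true), Finset.mem_univ _⟩
  have hmax : ∀ q, (cls q).card ≤ (cls p).card := fun q => hp q (Finset.mem_univ q)
  -- the maximal class is nonempty
  have hJ : (cls p).Nonempty := by
    have h01 : (⟨0, by omega⟩ : Fin r) ≠ ⟨1, by omega⟩ := by simp [Fin.ext_iff]
    have h := hne ⟨1, by omega⟩ ⟨0, by omega⟩ h01
    rcases lt_or_gt_of_ne h with h | h
    · have hm : (⟨1, by omega⟩ : Fin r) ∈ cls (⟨0, by omega⟩, false) := by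
        simp only [cls]; simpa using h
      have := Finset.card_pos.2 ⟨_, hm⟩
      exact Finset.card_pos.1 (lt_of_lt_of_le this (hmax _))
    · have hm : (⟨1, by omega⟩ : Fin r) ∈ cls (⟨0, by omega⟩, true) := by
        simp only [cls]; simpa using h
      have := Finset.card_pos.2 ⟨_, hm⟩
      exact Finset.card_pos.1 (lt_of_lt_of_le this (hmax _))
  obtain ⟨y, hy, hA, hB, hC, hD⟩ := exists_meet_towards hmed c hc a ha (cls p) hJ
  obtain ⟨i, b⟩ := p
  have hi : i ∉ cls (i, b) := by
    intro hmem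
    cases b with
    | true =>
      have : c i < a i i := by simpa [cls] using hmem
      rw [hdiag] at this; exact lt_irrefl _ this
    | false =>
      have : a i i < c i := by simpa [cls] using hmem
      rw [hdiag] at this; exact lt_irrefl _ this
  have hyi : y i ≠ c i := by
    cases b with
    | true =>
      exact ne_of_gt (hC i (fun j hj => by simpa [cls] using hj))
    | false =>
      exact ne_of_lt (hD i (fun j hj => by simpa [cls] using hj))
  obtain ⟨l, hl⟩ := hint y hy (a i) (ha i)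
  have hli : l ≠ i := by
    rintro rfl
    rw [hdiag] at hl
    exact hyi hl
  have hal := hne i l hli
  rcases lt_or_gt_of_ne hal with h | h
  · -- a i l < c l
    have hyl : y l < c l := by rw [hl]; exact h
    have hsub : insert i (cls (i, b)) ⊆ cls (l, false) := by
      intro j hj
      rcases Finset.mem_insert.1 hj with rfl | hj
      · simpa [cls] using h
      · simpa [cls] using hB l hyl j hj
    have h1 := Finset.card_le_card hsub
    rw [Finset.card_insert_of_notMem hi] at h1
    have h2 := hmax (l, false)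
    omega
  · have hyl : c l < y l := by rw [hl]; exact h
    have hsub : insert i (cls (i, b)) ⊆ cls (l, true) := by
      intro j hj
      rcases Finset.mem_insert.1 hj with rfl | hj
      · simpa [cls] using h
      · simpa [cls] using hA l hyl j hj
    have h1 := Finset.card_le_card hsub
    rw [Finset.card_insert_of_notMem hi] at h1
    have h2 := hmax (l, true)
    omega

theorem median_intersecting (r : ℕ) (hr : 2 ≤ r) (α : Type) [LinearOrder α]
    (H : Finset (Fin r → α)) (hne : H.Nonempty)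
    (hmed : ∀ x ∈ H, ∀ y ∈ H, ∀ z ∈ H, (x ⊓ y) ⊔ (y ⊓ z) ⊔ (z ⊓ x) ∈ H)
    (hint : ∀ e ∈ H, ∀ f ∈ H, ∃ i, e i = f i) : tau H ≤ r - 1 := by
  classical
  obtain ⟨c, hc⟩ := hne
  obtain ⟨i, hi⟩ := median_intersecting_cover r hr α H hmed hint c hc
  have hcov : IsCover H ((Finset.univ.erase i).image (fun l => (l, c l))) := by
    intro e he
    obtain ⟨l, hl, hle⟩ := hi e he
    refine ⟨l, Finset.mem_image.2 ⟨l, Finset.mem_erase.2 ⟨hl, Finset.mem_univ _⟩, ?_⟩⟩
    rw [hle]
  refine le_trans (tau_le hcov) (le_trans Finset.card_image_le ?_)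
  rw [Finset.card_erase_of_mem (Finset.mem_univ _), Finset.card_univ, Fintype.card_fin]

end Vale.Agent.Lib.P045
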