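import Mathlib
import Vale.Agent.Lib.P045.Ordered

/-!
P045: the simplices `{a : ∑ a i ≤ s}` show that `2 τ ≤ r ν + 1` is sharp for shifted hypergraphs.
-/

namespace Vale.Agent.Lib.P045

variable {r : ℕ}

/-- the simplex `{a ∈ ℕ^r : ∑ a i ≤ s}` -/
def simplex (r s : ℕ) : Finset (Fin r → ℕ) :=
  (Fintype.piFinset (fun _ : Fin r => Finset.range (s + 1))).filter (fun a => ∑ i, a i ≤ s)

lemma mem_simplex {s : ℕ} {a : Fin r → ℕ} : a ∈ simplex r s ↔ ∑ i, a i ≤ s := by
  simp only [simplex, Finset.mem_filter, Fintype.mem_piFinset, Finset.mem_range]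
  constructor
  · exact fun h => h.2
  · intro h
    refine ⟨fun i => ?_, h⟩
    have : a i ≤ ∑ j, a j := Finset.single_le_sum (fun _ _ => Nat.zero_le _) (Finset.mem_univ i)
    omega

lemma simplex_lower (r s : ℕ) : IsLowerSet (simplex r s : Set (Fin r → ℕ)) := by
  intro a b hba ha
  simp only [Finset.mem_coe, mem_simplex] at ha ⊢
  exact le_trans (Finset.sum_le_sum (fun i _ => hba i)) ha

lemma two_sum_ge (T : Finset ℕ) : T.card * (T.card - 1) ≤ 2 * ∑ t ∈ T, t := by
  induction h : T.card generalizing T with
  | zero => simp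
  | succ n ih =>
    have hne : T.Nonempty := Finset.card_pos.1 (by omega)
    have hm : T.max' hne ∈ T := Finset.max'_mem _ _
    have hcard : (T.erase (T.max' hne)).card = n := by
      rw [Finset.card_erase_of_mem hm]; omega
    have ih' := ih (T.erase (T.max' hne)) hcard
    have hmn : n ≤ T.max' hne := by
      have hsub : T.erase (T.max' hne) ⊆ Finset.range (T.max' hne) := by
        intro t ht
        rw [Finset.mem_range]
        exact Finset.lt_max'_of_mem_erase_max' _ hne ht
      have := Finset.card_le_card hsub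
      rw [hcard, Finset.card_range] at this
      exact this
    rw [← Finset.add_sum_erase T (fun t => t) hm]
    have e : (n + 1) * (n + 1 - 1) = n * (n - 1) + 2 * n := by
      cases n with
      | zero => rfl
      | succ k => simp only [Nat.add_sub_cancel]; ring
    rw [e]
    omega

/-- every cover of the simplex has more than `s` vertices -/
lemma card_cover_simplex {s : ℕ} {S : Finset (Fin r × ℕ)} (hS : IsCover (simplex r s) S) :
    s + 1 ≤ S.card := by
  classical
  by_contra hcon
  have hex : ∀ i : Fin r, ∃ j : ℕ, (i, j) ∉ S := by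
    intro i
    by_contra hall
    push Not at hall
    have hsub : (Finset.range (S.card + 1)).image (fun j => (i, j)) ⊆ S := by
      intro p hp
      obtain ⟨j, _, rfl⟩ := Finset.mem_image.1 hp
      exact hall j
    have := Finset.card_le_card hsub
    rw [Finset.card_image_of_injective _ (fun a b h => by simpa using h), Finset.card_range] at this
    omega
  have hb : ∀ i : Fin r, Nat.find (hex i) ≤ (S.filter (fun p => p.1 = i)).card := by
    intro i
    have hsub : (Finset.range (Nat.find (hex i))).image (fun j => (i, j)) ⊆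
        S.filter (fun p => p.1 = i) := by
      intro p hp
      obtain ⟨j, hj, rfl⟩ := Finset.mem_image.1 hp
      refine Finset.mem_filter.2 ⟨?_, rfl⟩
      have := Nat.find_min (hex i) (Finset.mem_range.1 hj)
      exact not_not.1 this
    have := Finset.card_le_card hsub
    rw [Finset.card_image_of_injective _ (fun a b h => by simpa using h), Finset.card_range] at this
    exact this
  have hsum : ∑ i, (S.filter (fun p => p.1 = i)).card = S.card :=
    (Finset.card_eq_sum_card_fiberwise (f := Prod.fst) (t := Finset.univ)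
      (fun _ _ => Finset.mem_coe.2 (Finset.mem_univ _))).symm
  have hmem : (fun i => Nat.find (hex i)) ∈ simplex r s := by
    rw [mem_simplex]
    have := Finset.sum_le_sum (fun i (_ : i ∈ Finset.univ) => hb i)
    omega
  obtain ⟨i, hi⟩ := hS _ hmem
  exact Nat.find_spec (hex i) hi

/-- matchings of the simplex -/
lemma card_matching_simplex {s : ℕ} {M : Finset (Fin r → ℕ)} (hM : IsMatching (simplex r s) M) :
    r * (M.card - 1) ≤ 2 * s := by
  classical
  rcases Nat.eq_zero_or_pos M.card with h0 | hpos
  · rw [h0]; simp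
  have h1 : ∀ i : Fin r, M.card * (M.card - 1) ≤ 2 * ∑ e ∈ M, e i := by
    intro i
    have hinj : Set.InjOn (fun e : Fin r → ℕ => e i) (M : Set (Fin r → ℕ)) := by
      intro e he f hf hef
      by_contra hne
      exact hM.2 e he f hf hne i hef
    have := two_sum_ge (M.image (fun e => e i))
    rw [Finset.card_image_of_injOn hinj, Finset.sum_image hinj] at this
    exact this
  have h2 : ∑ i : Fin r, M.card * (M.card - 1) ≤ ∑ i : Fin r, 2 * ∑ e ∈ M, e i :=
    Finset.sum_le_sum (fun i _ => h1 i)
  rw [Finset.sum_const, Finset.card_univ, Fintype.card_fin, smul_eq_mul, ← Finset.mul_sum,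
    Finset.sum_comm] at h2
  have h3 : ∑ e ∈ M, ∑ i, e i ≤ ∑ _e ∈ M, s :=
    Finset.sum_le_sum (fun e he => mem_simplex.1 (hM.1 he))
  rw [Finset.sum_const, smul_eq_mul] at h3
  have h4 : M.card * (r * (M.card - 1)) ≤ M.card * (2 * s) := by
    calc M.card * (r * (M.card - 1)) = r * (M.card * (M.card - 1)) := by ring
      _ ≤ 2 * ∑ e ∈ M, ∑ i, e i := h2
      _ ≤ 2 * (M.card * s) := Nat.mul_le_mul_left _ h3
      _ = M.card * (2 * s) := by ring
  exact Nat.le_of_mul_le_mul_left h4 hpos

/-- the extremal example -/
theorem simplex_extremal (r k : ℕ) (hr : 2 ≤ r) (hk : 1 ≤ k) :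
    nu (simplex r ((r * k + 1) / 2 - 1)) = k ∧ tau (simplex r ((r * k + 1) / 2 - 1)) = (r * k + 1) / 2 := by
  have hrk : 2 ≤ r * k := by nlinarith
  set s := (r * k + 1) / 2 - 1 with hs
  have hs1 : s + 1 = (r * k + 1) / 2 := by omega
  have hsharp := (shifted_ryser r hr (simplex r s) (simplex_lower r s)).1
  -- lower bound for tau
  have htau : s + 1 ≤ tau (simplex r s) := by
    have hne : {n | ∃ S : Finset (Fin r × ℕ), IsCover (simplex r s) S ∧ S.card = n}.Nonempty := by
      refine ⟨_, (Finset.range (s + 1)).image (fun j => ((⟨0, by omega⟩ : Fin r), j)), ?_, rfl⟩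
      intro e he
      refine ⟨⟨0, by omega⟩, Finset.mem_image.2 ⟨e ⟨0, by omega⟩, ?_, rfl⟩⟩
      have h1 : e ⟨0, by omega⟩ ≤ ∑ j, e j :=
        Finset.single_le_sum (fun _ _ => Nat.zero_le _) (Finset.mem_univ _)
      have h2 := mem_simplex.1 he
      exact Finset.mem_range.2 (by omega)
    obtain ⟨S, hS, hcard⟩ := Nat.sInf_mem hne
    have := card_cover_simplex hS
    rw [hcard] at this
    exact this
  -- upper bound for nu
  have hnu : nu (simplex r s) ≤ k := by
    apply csSup_le
    · exact ⟨0, ∅, ⟨by simp, by simp⟩, rfl⟩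
    · rintro n ⟨M, hM, rfl⟩
      have h := card_matching_simplex hM
      by_contra hcon
      have h5 : k ≤ M.card - 1 := by omega
      have h6 : r * k ≤ r * (M.card - 1) := Nat.mul_le_mul_left _ h5
      omega
  have h7 : r * nu (simplex r s) ≤ r * k := Nat.mul_le_mul_left _ hnu
  constructor
  · by_contra hne
    have h8 : nu (simplex r s) + 1 ≤ k := by omega
    have h9 : r * (nu (simplex r s) + 1) ≤ r * k := Nat.mul_le_mul_left _ h8
    have h10 : r * (nu (simplex r s) + 1) = r * nu (simplex r s) + r := by ring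
    omega
  · omega

end Vale.Agent.Lib.P045
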